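import Vale.Agent.P166.Extra

open MeasureTheory ProbabilityTheory Filter Topology Vale.Agent.P166

/-- The limiting pressure of orthogonally invariant Ising spin glasses. -/
theorem Vale.Agent.Results.P166.A_full.result :
    (∀ N : ℕ, ∃ ν : Measure (Fin N → Fin N → ℝ), IsHaarO ν) ∧
    ∀ (β : ℝ), 0 < β → ∀ (μ : Measure ℝ) [IsProbabilityMeasure μ], IsCompact μ.support →
      ((∀ τ : Trial, IntervalIntegrable (fun q => Rtr μ (β * τ.sus q)) volume 0 1) ∧
        (∀ τ : Trial, BddAbove (τ.ent '' {a | ∀ l, 0 ≤ a l})) ∧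
        BddBelow (Set.range fun τ : Trial => τ.energy β μ + τ.entropy)) ∧
      ∀ (lam : (N : ℕ) → Fin N → ℝ),
        (∀ f : BoundedContinuousFunction ℝ ℝ,
          Tendsto (fun N : ℕ => (N : ℝ)⁻¹ * ∑ i, f (lam N i)) atTop (𝓝 (∫ x, f x ∂μ))) →
        Tendsto (fun N => ⨅ i, lam N i) atTop (𝓝 (sInf μ.support)) →
        Tendsto (fun N => ⨆ i, lam N i) atTop (𝓝 (sSup μ.support)) →
      ∀ (ν : (N : ℕ) → Measure (Fin N → Fin N → ℝ)), (∀ N, IsHaarO (ν N)) →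
        (∀ N, Integrable (pressure β (lam N)) (ν N)) ∧
        Tendsto (fun N => ∫ U, pressure β (lam N) U ∂ν N) atTop (𝓝 (limitP β μ)) ∧
        ∀ ε > 0, Tendsto (fun N => (ν N).real {U | ε < |pressure β (lam N) U - limitP β μ|})
          atTop (𝓝 0) :=
  ⟨exists_isHaarO, fun β hβ μ _ hμ =>
    ⟨⟨fun τ => intervalIntegrable_Rtr hμ τ hβ, Trial.bddAbove_ent, bddBelow_values hβ μ hμ⟩,
      fun lam h1 h2 h3 ν hν =>
        ⟨fun N => integrable_pressure β (lam N) (hν N), main β hβ μ hμ lam h1 h2 h3 ν hν⟩⟩⟩
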